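import Vale.Agent.P333.H537.Gd.Str

set_option autoImplicit false

/-!
P333: a family of strings for which a greedy superstring is longer than twice a shortest one.
-/

namespace Vale.Agent.P333.H537.Gd

open Vale.Agent.P333.H537

theorem step5 : Greedy.Step
    [m4, m3, m2, m0, s0, s1, s2, s3, s4, s5, s12, s13, s14, s18]
    [m5, m4, m2, m0, s0, s1, s2, s3, s4, s5, s12, s13, s14] :=
  step_of m3 s18 m5
    [m4, m2, m0, s0, s1, s2, s3, s4, s5, s12, s13, s14] 133
    ((List.perm_middle (l₁ := [m4]) (a := m3)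
      (l₂ := [m2, m0, s0, s1, s2, s3, s4, s5, s12, s13, s14, s18])).trans
      ((List.perm_middle (l₁ := [m4, m2, m0, s0, s1, s2, s3, s4, s5, s12, s13, s14]) (a := s18)
      (l₂ := [])).cons m3))
    (by decide +kernel) (by decide +kernel) (by decide +kernel) (by decide +kernel)
    (by decide +kernel) rfl

theorem step6 : Greedy.Step
    [m5, m4, m2, m0, s0, s1, s2, s3, s4, s5, s12, s13, s14]
    [m6, m5, m4, m2, m0, s0, s1, s4, s5, s12, s13, s14] :=
  step_of s2 s3 m6
    [m5, m4, m2, m0, s0, s1, s4, s5, s12, s13, s14] 121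
    ((List.perm_middle (l₁ := [m5, m4, m2, m0, s0, s1]) (a := s2)
      (l₂ := [s3, s4, s5, s12, s13, s14])).trans
      ((List.perm_middle (l₁ := [m5, m4, m2, m0, s0, s1]) (a := s3)
      (l₂ := [s4, s5, s12, s13, s14])).cons s2))
    (by decide +kernel) (by decide +kernel) (by decide +kernel) (by decide +kernel)
    (by decide +kernel) rfl

theorem step7 : Greedy.Step
    [m6, m5, m4, m2, m0, s0, s1, s4, s5, s12, s13, s14]
    [m7, m6, m5, m4, m2, m0, s0, s1, s12, s13, s14] :=
  step_of s4 s5 m7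
    [m6, m5, m4, m2, m0, s0, s1, s12, s13, s14] 121
    ((List.perm_middle (l₁ := [m6, m5, m4, m2, m0, s0, s1]) (a := s4)
      (l₂ := [s5, s12, s13, s14])).trans
      ((List.perm_middle (l₁ := [m6, m5, m4, m2, m0, s0, s1]) (a := s5)
      (l₂ := [s12, s13, s14])).cons s4))
    (by decide +kernel) (by decide +kernel) (by decide +kernel) (by decide +kernel)
    (by decide +kernel) rfl

theorem step8 : Greedy.Step
    [m7, m6, m5, m4, m2, m0, s0, s1, s12, s13, s14]
    [m8, m7, m6, m5, m4, m2, m0, s0, s1, s12] :=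
  step_of s13 s14 m8
    [m7, m6, m5, m4, m2, m0, s0, s1, s12] 121
    ((List.perm_middle (l₁ := [m7, m6, m5, m4, m2, m0, s0, s1, s12]) (a := s13)
      (l₂ := [s14])).trans
      ((List.perm_middle (l₁ := [m7, m6, m5, m4, m2, m0, s0, s1, s12]) (a := s14)
      (l₂ := [])).cons s13))
    (by decide +kernel) (by decide +kernel) (by decide +kernel) (by decide +kernel)
    (by decide +kernel) rfl

theorem step9 : Greedy.Step
    [m8, m7, m6, m5, m4, m2, m0, s0, s1, s12]
    [m9, m7, m6, m4, m2, m0, s0, s1, s12] :=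
  step_of m8 m5 m9
    [m7, m6, m4, m2, m0, s0, s1, s12] 121
    ((List.perm_middle (l₁ := []) (a := m8)
      (l₂ := [m7, m6, m5, m4, m2, m0, s0, s1, s12])).trans
      ((List.perm_middle (l₁ := [m7, m6]) (a := m5)
      (l₂ := [m4, m2, m0, s0, s1, s12])).cons m8))
    (by decide +kernel) (by decide +kernel) (by decide +kernel) (by decide +kernel)
    (by decide +kernel) rfl

end Vale.Agent.P333.H537.Gd
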