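import Vale.Agent.P333.H537.Gd.Str

set_option autoImplicit false

/-!
P333: a family of strings for which a greedy superstring is longer than twice a shortest one.
-/

namespace Vale.Agent.P333.H537.Gd

open Vale.Agent.P333.H537

theorem step10 : Greedy.Step
    [m9, m7, m6, m4, m2, m0, s0, s1, s12]
    [m10, m9, m7, m6, m4, m2, m0, s12] :=
  step_of s0 s1 m10
    [m9, m7, m6, m4, m2, m0, s12] 107
    ((List.perm_middle (l₁ := [m9, m7, m6, m4, m2, m0]) (a := s0)
      (l₂ := [s1, s12])).trans
      ((List.perm_middle (l₁ := [m9, m7, m6, m4, m2, m0]) (a := s1)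
      (l₂ := [s12])).cons s0))
    (by decide +kernel) (by decide +kernel) (by decide +kernel) (by decide +kernel)
    (by decide +kernel) rfl

theorem step11 : Greedy.Step
    [m10, m9, m7, m6, m4, m2, m0, s12]
    [m11, m10, m7, m6, m4, m2, m0] :=
  step_of s12 m9 m11
    [m10, m7, m6, m4, m2, m0] 107
    ((List.perm_middle (l₁ := [m10, m9, m7, m6, m4, m2, m0]) (a := s12)
      (l₂ := [])).trans
      ((List.perm_middle (l₁ := [m10]) (a := m9)
      (l₂ := [m7, m6, m4, m2, m0])).cons s12))
    (by decide +kernel) (by decide +kernel) (by decide +kernel) (by decide +kernel)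
    (by decide +kernel) rfl

theorem step12 : Greedy.Step
    [m11, m10, m7, m6, m4, m2, m0]
    [m12, m11, m10, m7, m6, m4] :=
  step_of m0 m2 m12
    [m11, m10, m7, m6, m4] 30
    ((List.perm_middle (l₁ := [m11, m10, m7, m6, m4, m2]) (a := m0)
      (l₂ := [])).trans
      ((List.perm_middle (l₁ := [m11, m10, m7, m6, m4]) (a := m2)
      (l₂ := [])).cons m0))
    (by decide +kernel) (by decide +kernel) (by decide +kernel) (by decide +kernel)
    (by decide +kernel) rfl

theorem step13 : Greedy.Step
    [m12, m11, m10, m7, m6, m4]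
    [m13, m12, m11, m10, m4] :=
  step_of m7 m6 m13
    [m12, m11, m10, m4] 8
    ((List.perm_middle (l₁ := [m12, m11, m10]) (a := m7)
      (l₂ := [m6, m4])).trans
      ((List.perm_middle (l₁ := [m12, m11, m10]) (a := m6)
      (l₂ := [m4])).cons m7))
    (by decide +kernel) (by decide +kernel) (by decide +kernel) (by decide +kernel)
    (by decide +kernel) rfl

theorem step14 : Greedy.Step
    [m13, m12, m11, m10, m4]
    [m14, m11, m10, m4] :=
  step_of m12 m13 m14
    [m11, m10, m4] 4
    ((List.perm_middle (l₁ := [m13]) (a := m12)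
      (l₂ := [m11, m10, m4])).trans
      ((List.perm_middle (l₁ := []) (a := m13)
      (l₂ := [m11, m10, m4])).cons m12))
    (by decide +kernel) (by decide +kernel) (by decide +kernel) (by decide +kernel)
    (by decide +kernel) rfl

end Vale.Agent.P333.H537.Gd
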