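import Vale.Agent.P333.H537.Gd.Str

set_option autoImplicit false

/-!
P333: a family of strings for which a greedy superstring is longer than twice a shortest one.
-/

namespace Vale.Agent.P333.H537.Gd

open Vale.Agent.P333.H537

theorem free_fam : free fam = true := by decide +kernel

theorem step15 : Greedy.Step
    [m14, m11, m10, m4]
    [m15, m11, m4] :=
  step_of m14 m10 m15
    [m11, m4] 2
    ((List.perm_middle (l₁ := []) (a := m14)
      (l₂ := [m11, m10, m4])).trans
      ((List.perm_middle (l₁ := [m11]) (a := m10)
      (l₂ := [m4])).cons m14))
    (by decide +kernel) (by decide +kernel) (by decide +kernel) (by decide +kernel)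
    (by decide +kernel) rfl

theorem step16 : Greedy.Step
    [m15, m11, m4]
    [m16, m15] :=
  step_of m4 m11 m16
    [m15] 0
    ((List.perm_middle (l₁ := [m15, m11]) (a := m4)
      (l₂ := [])).trans
      ((List.perm_middle (l₁ := [m15]) (a := m11)
      (l₂ := [])).cons m4))
    (by decide +kernel) (by decide +kernel) (by decide +kernel) (by decide +kernel)
    (by decide +kernel) rfl

theorem step17 : Greedy.Step
    [m16, m15]
    [m17] :=
  step_of m16 m15 m17
    [] 0
    ((List.perm_middle (l₁ := []) (a := m16)
      (l₂ := [m15])).trans
      ((List.perm_middle (l₁ := []) (a := m15)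
      (l₂ := [])).cons m16))
    (by decide +kernel) (by decide +kernel) (by decide +kernel) (by decide +kernel)
    (by decide +kernel) rfl

end Vale.Agent.P333.H537.Gd
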