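import Vale.Agent.P333.H537.Gd.StA
import Vale.Agent.P333.H537.Gd.StB
import Vale.Agent.P333.H537.Gd.StC
import Vale.Agent.P333.H537.Gd.StD

set_option autoImplicit false

/-!
P333: a family of strings for which a greedy superstring is longer than twice a shortest one.
-/

namespace Vale.Agent.P333.H537.Gd

open Vale.Agent.P333.H537

theorem reduced : Greedy.Reduced fam fam :=
  reduced_of free_fam (by decide +kernel)

theorem output : Greedy.Output fam m17 := by
  refine ⟨fam, reduced, ?_⟩
  have h0 := Relation.ReflTransGen.single step0
  have h1 := h0.tail step1
  have h2 := h1.tail step2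
  have h3 := h2.tail step3
  have h4 := h3.tail step4
  have h5 := h4.tail step5
  have h6 := h5.tail step6
  have h7 := h6.tail step7
  have h8 := h7.tail step8
  have h9 := h8.tail step9
  have h10 := h9.tail step10
  have h11 := h10.tail step11
  have h12 := h11.tail step12
  have h13 := h12.tail step13
  have h14 := h13.tail step14
  have h15 := h14.tail step15
  have h16 := h15.tail step16
  have h17 := h16.tail step17
  exact h17

theorem length_out : (m17).length = 1464 := by decide +kernel

theorem opt_le : opt fam ≤ 720 :=
  opt_le_of tt (by decide +kernel) (by decide +kernel)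

/-- **The greedy conjecture fails.** -/
theorem main : ∃ (S : List (List ℕ)) (t : List ℕ), Greedy.Reduced S S ∧ Greedy.Output S t ∧
    2 * opt S < t.length ∧ 61 * opt S ≤ 30 * t.length := by
  refine ⟨fam, m17, reduced, output, ?_, ?_⟩ <;>
  · have h1 := opt_le
    have h2 := length_out
    omega

end Vale.Agent.P333.H537.Gd
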